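import Vale.Agent.P154.Laws
import Vale.Agent.P154.Q3Ferro
import Vale.Agent.P154.Q4Ferro

namespace Vale.Agent.Results.P154.Ferro

open Filter Topology Vale.Agent.P154

/-- Ferromagnetic Potts channels with three or four states: on the `d`-ary tree and on the
Poisson Galton-Watson tree, reconstruction occurs exactly above the Kesten-Stigum bound. -/
theorem result (q : ℕ) (hq : q = 3 ∨ q = 4) (lam : ℝ) (h0 : 0 ≤ lam) (h1 : lam ≤ 1)
    (d : ℝ) (ν : ℕ → ℝ)
    (hν : (∃ k : ℕ, 2 ≤ k ∧ d = k ∧ ν = dary k) ∨ (0 < d ∧ ν = pois d)) :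
    (∀ n, HasSum (marg q ν lam n) 1) ∧
    ((∃ c : ℝ, 0 < c ∧ Tendsto (adv q ν lam) atTop (𝓝 c)) ↔ 1 < d * lam ^ 2) ∧
    (Tendsto (adv q ν lam) atTop (𝓝 0) ↔ d * lam ^ 2 ≤ 1) := by
  have h : Law ν d := by
    rcases hν with ⟨k, hk, rfl, rfl⟩ | ⟨hd, rfl⟩
    exacts [law_dary hk, law_pois hd]
  rcases hq with rfl | rfl
  · exact threshold (by norm_num) (le_trans (by norm_num) h0) h1 h fun hc =>
      Q3.ferro lam h0 h1 ν h.nonneg h.one d h.mean hc h.big
  · exact threshold (by norm_num) (le_trans (by norm_num) h0) h1 h fun hc =>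
      Q4.ferro lam h0 h1 ν h.nonneg h.one d h.mean hc h.big

end Vale.Agent.Results.P154.Ferro
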