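import Vale.Agent.P154.AF
import Vale.Agent.P154.Q3Ferro
import Vale.Agent.P154.Q4Ferro

namespace Vale.Agent.Results.P154.Most

open Filter Topology Vale.Agent.P154

/-- The Kesten-Stigum bound is the exact reconstruction threshold for three states (either sign)
and four states (ferromagnetic), on Poisson trees and on `d`-ary trees, except possibly for three
states, `d ≤ 4` and `lam < -4 / 9`. -/
theorem result (q : ℕ) (lam : ℝ) (hq : (q = 3 ∧ -1 / 2 ≤ lam) ∨ (q = 4 ∧ 0 ≤ lam)) (h1 : lam ≤ 1)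
    (d : ℝ) (ν : ℕ → ℝ)
    (hν : (∃ k : ℕ, 2 ≤ k ∧ d = k ∧ ν = dary k ∧ (5 ≤ k ∨ -4 / 9 ≤ lam)) ∨ (0 < d ∧ ν = pois d)) :
    (∀ n, HasSum (marg q ν lam n) 1) ∧
    ((∃ c : ℝ, 0 < c ∧ Tendsto (adv q ν lam) atTop (𝓝 c)) ↔ 1 < d * lam ^ 2) ∧
    (Tendsto (adv q ν lam) atTop (𝓝 0) ↔ d * lam ^ 2 ≤ 1) := by
  have h : Law ν d := by
    rcases hν with ⟨k, hk, rfl, rfl, -⟩ | ⟨hd, rfl⟩
    exacts [law_dary hk, law_pois hd]
  rcases hq with ⟨rfl, h0⟩ | ⟨rfl, h0⟩
  · refine threshold (by norm_num) (le_trans (by norm_num) h0) h1 h fun hc => ?_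
    rcases le_or_gt 0 lam with h2 | h2
    · exact Q3.ferro lam h2 h1 ν h.nonneg h.one d h.mean hc h.big
    rcases hν with ⟨k, hk, rfl, rfl, h5⟩ | ⟨hd, rfl⟩
    · rcases le_or_gt 5 k with h6 | h6
      · exact AF.nonrec_le hk le_rfl h6 h2 hc
      · refine AF.nonrec_le hk h6.le le_rfl h2 ?_
        have := h5.resolve_left (by omega)
        push_cast
        nlinarith
    · exact AF.nonrec_pois hd h0 h2 hc
  · exact threshold (by norm_num) (le_trans (by norm_num) h0) h1 h fun hc =>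
      Q4.ferro lam h0 h1 ν h.nonneg h.one d h.mean hc h.big

end Vale.Agent.Results.P154.Most
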